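import Vale.Agent.P323.Z.Step

/-!
# Composition of the two halves of the successor step
`WStep`: the words half (`S ⥤ W`, same objects, new morphisms). `AStep`: the amalgam half
(`W ⥤ T`, full and faithful, new objects). `compose`: together they give `Step`.
-/

namespace Vale.Agent.P323.H142

open CategoryTheory Vale.Agent.P323.Z

universe u

/-- The words half of the step. -/
structure WStep (S : Type u) [Category.{u} S] (a : ℕ → S) (ι : ∀ n, a n ⟶ a (n + 1)) where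
  W : Type u
  [cat : Category.{u} W]
  Φ : S ⥤ W
  inj : Function.Injective Φ.obj
  surj : Function.Surjective Φ.obj
  faithful : ∀ {x y : S} {f g : x ⟶ y}, Φ.map f = Φ.map g → f = g
  pb : ∀ {z x y b : S} {p : z ⟶ x} {q : z ⟶ y} {f : x ⟶ b} {g : y ⟶ b}, IsPB p q f g →
    IsPB (Φ.map p) (Φ.map q) (Φ.map f) (Φ.map g)
  div : ∀ {x y z : S} (u : Φ.obj x ⟶ Φ.obj y) (g : y ⟶ z) (h : x ⟶ z),
    u ≫ Φ.map g = Φ.map h → ∃ k, Φ.map k = u
  stage : IsStage W (fun n => Φ.obj (a n)) (fun n => Φ.map (ι n))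
  nd : ∀ {d b : S} (x : Φ.obj d ⟶ Φ.obj b), (∃ y, Φ.map y = x) ∨ Nonempty (SND Φ a ι x)
  gen : ∀ τ : STask S a ι, Φ.obj τ.c ⟶ Φ.obj τ.b
  gen_α : ∀ τ : STask S a ι, Φ.map τ.α ≫ gen τ = Φ.map (ι τ.n ≫ τ.γ)
  gen_inv : ∀ (τ : STask S a ι) {d : S} {s t : d ⟶ τ.b}, τ.E.rel s t →
    ∃ v : Φ.obj τ.c ⟶ Φ.obj d, v ≫ Φ.map s = gen τ ∧ v ≫ Φ.map t = gen τ
  G1 : ∀ (τ : STask S a ι) {B : S} (A : B ⟶ τ.b), τ.E.rel A A →
    ∀ (fA : Φ.obj τ.c ⟶ Φ.obj B) (γA : a (τ.n + 1) ⟶ B), fA ≫ Φ.map A = gen τ → γA ≫ A = τ.γ →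
    ∀ {b' e : S} (y : B ⟶ b') (y' : e ⟶ b') {f : S} (t : Φ.obj f ⟶ Φ.obj τ.c)
      (s : Φ.obj f ⟶ Φ.obj e),
      t ≫ fA ≫ Φ.map y = s ≫ Φ.map y' → Thru t (Φ.map τ.α) ∨ Thru (γA ≫ y) y'
  G3 : ∀ (τ : STask S a ι) {d : S} (p : Φ.obj d ⟶ Φ.obj τ.b) (N : SND Φ a ι p)
    (h : Φ.obj (a (τ.n + 1)) ⟶ Φ.obj d), h ≫ p = Φ.map τ.γ →
    ∀ {f : S} (g : Φ.obj f ⟶ Φ.obj d) (s : Φ.obj f ⟶ Φ.obj τ.c), g ≫ p = s ≫ gen τ →
      Thru g (Φ.map N.π) ∨ Thru s (Φ.map τ.α)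
  G4 : ∀ (τ : STask S a ι) {d : S} (p : d ⟶ τ.b),
    (∃ (B : S) (A : B ⟶ τ.b) (u : B ⟶ d), τ.E.rel A (u ≫ p)) ∨
    ∀ {f : S} (g : Φ.obj f ⟶ Φ.obj d) (s : Φ.obj f ⟶ Φ.obj τ.c), g ≫ Φ.map p = s ≫ gen τ →
      Thru s (Φ.map τ.α)
  G5 : ∀ (τ : STask S a ι) {B B' d : S} (A : B ⟶ τ.b) (A' : B' ⟶ τ.b),
    τ.E.rel A A → τ.E.rel A' A' →
    ∀ (fA : Φ.obj τ.c ⟶ Φ.obj B) (fA' : Φ.obj τ.c ⟶ Φ.obj B'), fA ≫ Φ.map A = gen τ →
      fA' ≫ Φ.map A' = gen τ →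
    ∀ (u : B ⟶ d) (u' : B' ⟶ d) {f : S} (s t : Φ.obj f ⟶ Φ.obj τ.c),
      s ≫ fA ≫ Φ.map u = t ≫ fA' ≫ Φ.map u' →
      Thru s (Φ.map τ.α) ∨ Thru t (Φ.map τ.α) ∨
        (s = t ∧ ∃ (K : S) (x : K ⟶ B) (y : K ⟶ B'),
          τ.E.rel (x ≫ A) (y ≫ A') ∧ x ≫ u = y ≫ u')
  G6 : ∀ (τ : STask S a ι) {f : S} (s : Φ.obj f ⟶ Φ.obj τ.c) (y : f ⟶ τ.b),
    s ≫ gen τ = Φ.map y → Thru s (Φ.map τ.α)

/-- The amalgam half of the step. -/
structure AStep (W : Type u) [Category.{u} W] (a : ℕ → W) (ι : ∀ n, a n ⟶ a (n + 1)) where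
  T : Type u
  [cat : Category.{u} T]
  Ψ : W ⥤ T
  inj : Function.Injective Ψ.obj
  faithful : ∀ {x y : W} {f g : x ⟶ y}, Ψ.map f = Ψ.map g → f = g
  full : ∀ {x y : W} (u : Ψ.obj x ⟶ Ψ.obj y), ∃ k, Ψ.map k = u
  src : ∀ {d : T} {b : W}, (d ⟶ Ψ.obj b) → ∃ e, Ψ.obj e = d
  pb : ∀ {z x y b : W} {p : z ⟶ x} {q : z ⟶ y} {f : x ⟶ b} {g : y ⟶ b}, IsPB p q f g →
    IsPB (Ψ.map p) (Ψ.map q) (Ψ.map f) (Ψ.map g)
  stage : IsStage T (fun n => Ψ.obj (a n)) (fun n => Ψ.map (ι n))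
  am : ∀ {z x y : W} (_ : z ⟶ x) (_ : z ⟶ y), T
  jl : ∀ {z x y : W} (l : z ⟶ x) (r : z ⟶ y), Ψ.obj x ⟶ am l r
  jr : ∀ {z x y : W} (l : z ⟶ x) (r : z ⟶ y), Ψ.obj y ⟶ am l r
  K1 : ∀ {z x y : W} (l : z ⟶ x) (r : z ⟶ y), IsPB (Ψ.map l) (Ψ.map r) (jl l r) (jr l r)
  K2 : ∀ {z x y z' x' y' : W} (l : z ⟶ x) (r : z ⟶ y) (l' : z' ⟶ x') (r' : z' ⟶ y')
    (p : x' ⟶ x) (m : z' ⟶ z) (q : y' ⟶ y), IsPB l' m p l → IsPB r' m q r →
    ∃ φ : am l' r' ⟶ am l r,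
      IsPB (jl l' r') (Ψ.map p) φ (jl l r) ∧ IsPB (jr l' r') (Ψ.map q) φ (jr l r)

attribute [instance] WStep.cat AStep.cat

section

variable {W T : Type u} [Category.{u} W] [Category.{u} T] {Ψ : W ⥤ T}

/-- Factorisation passes from `W` to `T`. -/
theorem thru_map {x y z : W} {f : x ⟶ z} {g : y ⟶ z} (h : Thru f g) :
    Thru (Ψ.map f) (Ψ.map g) := by
  obtain ⟨k, rfl⟩ := h
  exact ⟨Ψ.map k, (Ψ.map_comp _ _).symm⟩

end

variable {S : Type u} [Category.{u} S] {a : ℕ → S} {ι : ∀ n, a n ⟶ a (n + 1)}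

section aux

variable (w : WStep S a ι)
  (A : AStep w.W (fun n => w.Φ.obj (a n)) (fun n => w.Φ.map (ι n)))

/-- Every object of `T` with a map to an old object comes from `S`. -/
theorem src_aux {d : A.T} {b : w.W} (h : d ⟶ A.Ψ.obj b) : ∃ e : S, A.Ψ.obj (w.Φ.obj e) = d := by
  obtain ⟨e, he⟩ := A.src h
  obtain ⟨e', he'⟩ := w.surj e
  exact ⟨e', by rw [he', he]⟩

/-- Data for new morphisms descend from `T` to `W`. -/
def sndDown {d b : S} {x : w.Φ.obj d ⟶ w.Φ.obj b}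
    (N : SND (w.Φ ⋙ A.Ψ) a ι (A.Ψ.map x)) : SND w.Φ a ι x where
  n := N.n
  A := N.A
  P := N.P
  π := N.π
  π' := N.π'
  eq := by
    apply A.faithful
    rw [Functor.map_comp]
    exact N.eq
  N0 := by
    intro e u y h
    obtain ⟨k, hk⟩ := N.N0 (e := e) (A.Ψ.map u) y (by
      change A.Ψ.map u ≫ A.Ψ.map x = A.Ψ.map (w.Φ.map y)
      rw [← Functor.map_comp, h])
    obtain ⟨k', hk'⟩ := A.full k
    refine ⟨k', A.faithful ?_⟩
    rw [Functor.map_comp, hk']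
    exact hk
  N1 := by
    intro e y
    rcases N.N1 y with ⟨h1, h2⟩ | h
    · left
      refine ⟨h1, ?_⟩
      obtain ⟨k, hk⟩ := h2
      obtain ⟨k', hk'⟩ := A.full k
      refine ⟨k', A.faithful ?_⟩
      rw [Functor.map_comp, hk']
      exact hk
    · right
      intro f u v huv
      obtain ⟨k, hk⟩ := h (A.Ψ.map u) (A.Ψ.map v) (by
        change A.Ψ.map u ≫ A.Ψ.map x = A.Ψ.map v ≫ A.Ψ.map (w.Φ.map y)
        rw [← Functor.map_comp, ← Functor.map_comp, huv])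
      obtain ⟨k', hk'⟩ := A.full k
      refine ⟨k', A.faithful ?_⟩
      rw [Functor.map_comp, hk']
      exact hk
  N2 := N.N2

/-- Data for new morphisms go up from `W` to `T`. -/
def sndUp {d b : S} {x : w.Φ.obj d ⟶ w.Φ.obj b}
    (N : SND w.Φ a ι x) : SND (w.Φ ⋙ A.Ψ) a ι (A.Ψ.map x) where
  n := N.n
  A := N.A
  P := N.P
  π := N.π
  π' := N.π'
  eq := by
    change A.Ψ.map (w.Φ.map N.π) ≫ A.Ψ.map x = A.Ψ.map (w.Φ.map _)
    rw [← Functor.map_comp, N.eq]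
  N0 := by
    intro e u y h
    obtain ⟨u', rfl⟩ := A.full u
    have h' : u' ≫ x = w.Φ.map y := by
      apply A.faithful
      rw [Functor.map_comp]
      exact h
    exact thru_map (Ψ := A.Ψ) (N.N0 u' y h')
  N1 := by
    intro e y
    rcases N.N1 y with ⟨h1, h2⟩ | h
    · exact Or.inl ⟨h1, thru_map (Ψ := A.Ψ) h2⟩
    · right
      intro f u v huv
      obtain ⟨f', rfl⟩ := A.src u
      obtain ⟨u', rfl⟩ := A.full u
      obtain ⟨v', rfl⟩ := A.full v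
      refine thru_map (Ψ := A.Ψ) (h u' v' (A.faithful ?_))
      rw [Functor.map_comp, Functor.map_comp]
      exact huv
  N2 := N.N2

end aux

/-- The two halves give the step. -/
def compose (w : WStep S a ι)
    (A : AStep w.W (fun n => w.Φ.obj (a n)) (fun n => w.Φ.map (ι n))) : Step S a ι where
  T := A.T
  Φ := w.Φ ⋙ A.Ψ
  inj := A.inj.comp w.inj
  faithful := fun h => w.faithful (A.faithful h)
  pb := fun h => A.pb (w.pb h)
  div := by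
    intro x y z u g h huv
    obtain ⟨u', rfl⟩ := A.full u
    obtain ⟨k, rfl⟩ := w.div u' g h (A.faithful (by rw [Functor.map_comp]; exact huv))
    exact ⟨k, rfl⟩
  stage := A.stage
  src := fun h => src_aux w A h
  nd := by
    intro d b x
    obtain ⟨x', rfl⟩ := A.full x
    rcases w.nd x' with ⟨y, rfl⟩ | ⟨⟨N⟩⟩
    · exact Or.inl ⟨y, rfl⟩
    · exact Or.inr ⟨sndUp w A N⟩
  gen := fun τ => A.Ψ.map (w.gen τ)
  gen_α := by
    intro τ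
    change A.Ψ.map (w.Φ.map _) ≫ A.Ψ.map _ = A.Ψ.map (w.Φ.map _)
    rw [← Functor.map_comp, w.gen_α]
  gen_inv := by
    intro τ d s t h
    obtain ⟨v, h1, h2⟩ := w.gen_inv τ h
    refine ⟨A.Ψ.map v, ?_, ?_⟩
    · change A.Ψ.map v ≫ A.Ψ.map (w.Φ.map s) = _
      rw [← Functor.map_comp, h1]
    · change A.Ψ.map v ≫ A.Ψ.map (w.Φ.map t) = _
      rw [← Functor.map_comp, h2]
  G1 := by
    intro τ B Am hA fA γA h1 h2 b' e y y' f t s hts
    obtain ⟨f', rfl⟩ := src_aux w A t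
    obtain ⟨fA', rfl⟩ := A.full fA
    obtain ⟨t', rfl⟩ := A.full t
    obtain ⟨s', rfl⟩ := A.full s
    rcases w.G1 τ Am hA fA' γA (A.faithful (by rw [Functor.map_comp]; exact h1)) h2 y y' t' s'
      (A.faithful (by
        rw [Functor.map_comp, Functor.map_comp, Functor.map_comp]; exact hts)) with h | h
    · exact Or.inl (thru_map (Ψ := A.Ψ) h)
    · exact Or.inr h
  G3 := by
    intro τ d p N h hp f g s hgs
    obtain ⟨f', rfl⟩ := src_aux w A g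
    obtain ⟨p', rfl⟩ := A.full p
    obtain ⟨h', rfl⟩ := A.full h
    obtain ⟨g', rfl⟩ := A.full g
    obtain ⟨s', rfl⟩ := A.full s
    rcases w.G3 τ p' (sndDown w A N) h' (A.faithful (by rw [Functor.map_comp]; exact hp)) g' s'
      (A.faithful (by rw [Functor.map_comp, Functor.map_comp]; exact hgs)) with h | h
    · exact Or.inl (thru_map (Ψ := A.Ψ) h)
    · exact Or.inr (thru_map (Ψ := A.Ψ) h)
  G4 := by
    intro τ d p
    rcases w.G4 τ p with h | h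
    · exact Or.inl h
    · right
      intro f g s hgs
      obtain ⟨f', rfl⟩ := src_aux w A g
      obtain ⟨g', rfl⟩ := A.full g
      obtain ⟨s', rfl⟩ := A.full s
      refine thru_map (Ψ := A.Ψ) (h g' s' (A.faithful ?_))
      rw [Functor.map_comp, Functor.map_comp]
      exact hgs
  G5 := by
    intro τ B B' d Am Am' hA hA' fA fA' h1 h1' u u' f s t hst
    obtain ⟨f', rfl⟩ := src_aux w A s
    obtain ⟨fB, rfl⟩ := A.full fA
    obtain ⟨fB', rfl⟩ := A.full fA'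
    obtain ⟨s', rfl⟩ := A.full s
    obtain ⟨t', rfl⟩ := A.full t
    rcases w.G5 τ Am Am' hA hA' fB fB' (A.faithful (by rw [Functor.map_comp]; exact h1))
      (A.faithful (by rw [Functor.map_comp]; exact h1')) u u' s' t'
      (A.faithful (by
        rw [Functor.map_comp, Functor.map_comp, Functor.map_comp, Functor.map_comp]
        exact hst)) with h | h | ⟨h, h'⟩
    · exact Or.inl (thru_map (Ψ := A.Ψ) h)
    · exact Or.inr (Or.inl (thru_map (Ψ := A.Ψ) h))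
    · exact Or.inr (Or.inr ⟨by rw [h], h'⟩)
  G6 := by
    intro τ f s y hsy
    obtain ⟨s', rfl⟩ := A.full s
    refine thru_map (Ψ := A.Ψ) (w.G6 τ s' y (A.faithful ?_))
    rw [Functor.map_comp]
    exact hsy
  am := fun l r => A.am (w.Φ.map l) (w.Φ.map r)
  jl := fun l r => A.jl (w.Φ.map l) (w.Φ.map r)
  jr := fun l r => A.jr (w.Φ.map l) (w.Φ.map r)
  K1 := fun l r => A.K1 (w.Φ.map l) (w.Φ.map r)
  K2 := by
    intro z x y z' x' y' l r l' r' p m q h1 h2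
    exact A.K2 (w.Φ.map l) (w.Φ.map r) (w.Φ.map l') (w.Φ.map r') (w.Φ.map p) (w.Φ.map m)
      (w.Φ.map q) (w.pb h1) (w.pb h2)

end Vale.Agent.P323.H142
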